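import Mathlib

namespace Vale.Agent.Results.P084.AllOdd

open Metric

section
variable {X : Type*} [NormedAddCommGroup X] [NormedSpace ℝ X]

theorem step (g : sphere (0 : X) 1 → sphere (0 : X) 1) (gi : Isometry g) 
    (h2 : ∀ x, ‖(g x : X) + x‖ = 2) (y : sphere (0 : X) 1) {s : ℝ} (hs : 0 < s) :
    ∃ u : sphere (0 : X) 1, ‖(u : X) - ((y : X) - s • ((g y : X) - y))‖ ≤ 4 * s ^ 2 := by
  have n1 : ∀ z : sphere (0 : X) 1, ‖(z : X)‖ = 1 := fun z => norm_eq_of_mem_sphere z
  set d : X := (g y : X) - y with hd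
  set w : X := (y : X) - s • d with hw
  have d2 : ‖d‖ ≤ 2 := (norm_sub_le _ _).trans (by rw [n1, n1]; norm_num)
  have wy : ‖w - y‖ = s * ‖d‖ := by
    rw [hw, sub_sub_cancel_left, norm_neg, norm_smul, Real.norm_of_nonneg hs.le]
  have e1 : w = (1 + s) • (y : X) - s • (g y : X) := by rw [hw, hd, add_smul, one_smul, smul_sub]; abel
  have h1 : 1 ≤ ‖w‖ := by
    have := norm_sub_norm_le ((1 + s) • (y : X)) (s • (g y : X))
    rw [← e1, norm_smul, norm_smul, n1, n1, Real.norm_of_nonneg hs.le,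
      Real.norm_of_nonneg (by linarith)] at this
    linarith
  have h0 : 0 < ‖w‖ := by linarith
  have h3 : ‖w‖ - 1 ≤ s * ‖d‖ := by
    have := norm_sub_norm_le w y
    rwa [n1, wy] at this
  let u : sphere (0 : X) 1 := ⟨‖w‖⁻¹ • w, by
    rw [mem_sphere_zero_iff_norm, norm_smul, norm_inv, norm_norm, inv_mul_cancel₀ h0.ne']⟩
  have wu : w = ‖w‖ • (u : X) := by
    show w = ‖w‖ • ‖w‖⁻¹ • w
    rw [smul_smul, mul_inv_cancel₀ h0.ne', one_smul]
  have uw : ‖(u : X) - w‖ = ‖w‖ - 1 := by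
    have : (u : X) - w = -((‖w‖ - 1) • (u : X)) := by rw [sub_smul, one_smul, ← wu]; abel
    rw [this, norm_neg, norm_smul, n1, Real.norm_of_nonneg (by linarith), mul_one]
  have uy : ‖(u : X) - y‖ ≤ s * ‖d‖ + (‖w‖ - 1) := by
    have := norm_sub_le_norm_sub_add_norm_sub (u : X) w y
    linarith
  obtain ⟨φ, p1, p2⟩ := exists_dual_vector ℝ ((g u : X) + u) (by rw [h2]; norm_num)
  have pl : ∀ z : X, φ z ≤ ‖z‖ := fun z => by
    have := φ.le_opNorm z
    rw [p1, one_mul] at this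
    exact (le_abs_self _).trans this
  rw [h2, map_add] at p2
  have p2' : φ (g u) + φ u = 2 := by exact_mod_cast p2
  have q1 := pl (g u)
  have q2 := pl u
  have q3 := pl y
  rw [n1] at q1 q2 q3
  have q4 := pl ((g u : X) - g y)
  have q5 : ‖(g u : X) - g y‖ = ‖(u : X) - y‖ := by
    have := gi.dist_eq u y
    rwa [Subtype.dist_eq, Subtype.dist_eq, dist_eq_norm, dist_eq_norm] at this
  rw [map_sub, q5] at q4
  have q6 : φ w = ‖w‖ := by
    have : φ u = 1 := by linarith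
    conv_lhs => rw [wu]
    rw [map_smul, this, smul_eq_mul, mul_one]
  have q7 : φ w = (1 + s) * φ y - s * φ (g y) := by
    rw [e1, map_sub, map_smul, map_smul, smul_eq_mul, smul_eq_mul]
  have q8 : 1 - 4 * s ≤ φ (g y) := by nlinarith
  have q9 : ‖w‖ - 1 ≤ 4 * s ^ 2 := by nlinarith
  exact ⟨u, by rw [uw]; exact q9⟩

theorem dbl (g : sphere (0 : X) 1 → sphere (0 : X) 1) (gi : Isometry g) (gs : Function.Surjective g)
    (h2 : ∀ x, ‖(g x : X) + x‖ = 2) {l m : ℝ} (hl : ∀ x, dist (g x) x ≤ l)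
    (hm : ∀ x, dist (g (g x)) x ≤ m) (x : sphere (0 : X) 1) {s : ℝ} (hs : 0 < s) :
    (1 + 2 * s) * dist (g x) x ≤ s * m + l + 8 * s ^ 2 + 8 * s ^ 3 := by
  obtain ⟨u, hu⟩ := step g gi h2 x hs
  obtain ⟨v, rfl⟩ := gs u
  obtain ⟨y, rfl⟩ := gs x
  have ds : ∀ a b : sphere (0 : X) 1, dist a b = ‖(a : X) - b‖ := fun a b => by
    rw [Subtype.dist_eq, dist_eq_norm]
  have a1 := hl v
  have a2 := hm y
  have a3 := gi.dist_eq v y
  have a4 := gi.dist_eq v (g y)
  rw [ds] at a1 a2 ⊢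
  rw [ds, ds] at a3 a4
  set x : X := (g y : X)
  set z : X := (g (g y) : X)
  set u : X := (g v : X)
  set w : X := x - s • (z - x) with hw
  have b1 : ‖w - x‖ = s * ‖z - x‖ := by
    rw [hw, sub_sub_cancel_left, norm_neg, norm_smul, Real.norm_of_nonneg hs.le]
  have b2 : ‖w - z‖ = (1 + s) * ‖z - x‖ := by
    have : w - z = -((1 + s) • (z - x)) := by rw [hw, add_smul, one_smul]; abel
    rw [this, norm_neg, norm_smul, Real.norm_of_nonneg (by linarith)]
  have b3 := norm_sub_le_norm_sub_add_norm_sub u w x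
  have b4 := norm_sub_le_norm_sub_add_norm_sub w u z
  have b5 := norm_sub_le_norm_sub_add_norm_sub (v : X) y z
  have b6 := norm_sub_le_norm_sub_add_norm_sub (v : X) u w
  rw [norm_sub_rev w u] at b4
  rw [norm_sub_rev (y : X) z] at b5
  rw [norm_sub_rev (v : X) u] at b6
  have b7 : (1 + s) * ‖(v : X) - x‖ ≤ s * ‖(v : X) - z‖ + ‖(v : X) - w‖ := by
    have e : (1 + s) • ((v : X) - x) = s • ((v : X) - z) + ((v : X) - w) := by
      rw [hw, add_smul, one_smul, smul_sub, smul_sub, smul_sub]; abel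
    have := norm_add_le (s • ((v : X) - z)) ((v : X) - w)
    rwa [← e, norm_smul, norm_smul, Real.norm_of_nonneg hs.le, Real.norm_of_nonneg (by linarith)] at this
  have c1 : (1 + s) * ((1 + s) * ‖z - x‖ - 4 * s ^ 2) ≤ (1 + s) * ‖(v : X) - x‖ :=
    mul_le_mul_of_nonneg_left (by linarith) (by linarith)
  have c2 : s * ‖(v : X) - z‖ ≤ s * (s * ‖z - x‖ + 4 * s ^ 2 + m) :=
    mul_le_mul_of_nonneg_left (by linarith) hs.le
  nlinarith

theorem half (g : sphere (0 : X) 1 → sphere (0 : X) 1) (gi : Isometry g) (gs : Function.Surjective g)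
    (h2 : ∀ x, ‖(g x : X) + x‖ = 2) {m : ℝ} (hm : ∀ x, dist (g (g x)) x ≤ m) (hb : ∀ x, dist (g x) x ≤ 2)
    (x : sphere (0 : X) 1) : dist (g x) x ≤ m / 2 := by
  have bd : BddAbove (Set.range fun x => dist (g x) x) := ⟨2, by rintro _ ⟨y, rfl⟩; exact hb y⟩
  have hl : ∀ y, dist (g y) y ≤ ⨆ y, dist (g y) y := fun y => le_ciSup bd y
  set l := ⨆ y, dist (g y) y with hl'
  haveI : Nonempty (sphere (0 : X) 1) := ⟨x⟩
  refine (hl x).trans (le_of_forall_pos_le_add fun ε hε => ?_)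
  set s := min 1 (ε / 8) with hs
  have s0 : 0 < s := by positivity
  have s1 : s ≤ 1 := min_le_left _ _
  have s2 : s ≤ ε / 8 := min_le_right _ _
  have k : l ≤ (s * m + l + 8 * s ^ 2 + 8 * s ^ 3) / (1 + 2 * s) := ciSup_le fun y => by
    rw [le_div_iff₀ (by positivity), mul_comm]
    exact dbl g gi gs h2 hl hm y s0
  rw [le_div_iff₀ (by positivity)] at k
  have k2 : s * (2 * l) ≤ s * (m + 8 * s + 8 * s ^ 2) := by nlinarith
  have k3 := le_of_mul_le_mul_left k2 s0
  nlinarith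

theorem core (n : ℕ) : ∀ g : sphere (0 : X) 1 → sphere (0 : X) 1, Isometry g → (∀ x, g (-g x) = -x) →
    (∀ x, ‖(g x : X) + x‖ = 2) → ∀ x, dist (g x) x ≤ 2 * (1 / 2) ^ n := by
  have hb : ∀ a b : sphere (0 : X) 1, dist a b ≤ 2 := fun a b => by
    rw [Subtype.dist_eq, dist_eq_norm]
    exact (norm_sub_le _ _).trans (by rw [norm_eq_of_mem_sphere, norm_eq_of_mem_sphere]; norm_num)
  induction n with
  | zero => exact fun g _ _ _ x => by simpa using hb _ _
  | succ n ih =>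
    intro g gi g1 g2 x
    have := half g gi (fun y => ⟨-g (-y), by rw [g1, neg_neg]⟩) g2
      (ih (fun z => g (g z)) (gi.comp gi) (fun z => by rw [g1, g1]) fun z => by
        have h := gi.dist_eq (g z) (-g z)
        rw [g1, Subtype.dist_eq, Subtype.dist_eq, dist_eq_norm, dist_eq_norm, coe_neg_sphere,
          coe_neg_sphere, sub_neg_eq_add, sub_neg_eq_add, ← two_smul ℝ (g z : X), norm_smul,
          norm_eq_of_mem_sphere] at h
        rw [h]
        norm_num) (fun _ => hb _ _) x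
    rw [pow_succ]
    linarith

end

theorem result {X Y : Type*} [NormedAddCommGroup X] [NormedSpace ℝ X]
    [NormedAddCommGroup Y] [NormedSpace ℝ Y]
    (f : sphere (0 : X) 1 → sphere (0 : Y) 1) (hf : Isometry f) (hs : Function.Surjective f)
    (x : sphere (0 : X) 1) : f (-x) = -f x := by
  let e : sphere (0 : X) 1 ≃ᵢ sphere (0 : Y) 1 := ⟨Equiv.ofBijective f ⟨hf.injective, hs⟩, hf⟩
  show e (-x) = -e x
  have ng : ∀ (a b : sphere (0 : X) 1), dist (-a) (-b) = dist a b :=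
    fun a b => by rw [Subtype.dist_eq, Subtype.dist_eq, coe_neg_sphere, coe_neg_sphere, dist_neg_neg]
  have ng' : ∀ (a b : sphere (0 : Y) 1), dist (-a) (-b) = dist a b :=
    fun a b => by rw [Subtype.dist_eq, Subtype.dist_eq, coe_neg_sphere, coe_neg_sphere, dist_neg_neg]
  have k := fun n => core n (fun z => -e.symm (-e z))
    (Isometry.of_dist_eq fun a b => by rw [ng, e.symm.dist_eq, ng', e.dist_eq])
    (fun z => by simp) (fun z => by
      have h := e.dist_eq (e.symm (-e z)) z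
      rw [e.apply_symm_apply, Subtype.dist_eq, Subtype.dist_eq, dist_eq_norm, dist_eq_norm,
        coe_neg_sphere, ← neg_add', norm_neg, ← two_smul ℝ, norm_smul, norm_eq_of_mem_sphere] at h
      rw [coe_neg_sphere, neg_add_eq_sub, norm_sub_rev, ← h]
      norm_num) x
  have t : Filter.Tendsto (fun n : ℕ => 2 * (1 / 2 : ℝ) ^ n) Filter.atTop (nhds (2 * 0)) :=
    (tendsto_pow_atTop_nhds_zero_of_lt_one (by norm_num) (by norm_num)).const_mul 2
  have this : -e.symm (-e x) = x := dist_le_zero.1 (by simpa using ge_of_tendsto' t k)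
  rw [← this, neg_neg, e.apply_symm_apply, this]

end Vale.Agent.Results.P084.AllOdd
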