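import Mathlib

namespace Vale.Agent.Results.P084.Odd

open Metric

/-- A set is dentable if for every `r > 0` some point of it lies outside the closed convex hull of
the part of the set at distance at least `r` from that point. -/
def Dentable {X : Type*} [NormedAddCommGroup X] [NormedSpace ℝ X] (D : Set X) : Prop :=
  ∀ r : ℝ, 0 < r → ∃ x ∈ D, x ∉ closure (convexHull ℝ (D \ ball x r))

/-- The Radon-Nikodym property, in its geometric form: nonempty bounded sets are dentable. -/
def HasRNP (X : Type*) [NormedAddCommGroup X] [NormedSpace ℝ X] : Prop :=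
  ∀ D : Set X, D.Nonempty → Bornology.IsBounded D → Dentable D

section
variable {X : Type*} [NormedAddCommGroup X] [NormedSpace ℝ X]

theorem step (g : sphere (0 : X) 1 → sphere (0 : X) 1) (gi : Isometry g) (gs : Function.Surjective g)
    (h2 : ∀ x, ‖(g x : X) + x‖ = 2) (y : sphere (0 : X) 1) {s : ℝ} (hs : 0 < s) :
    ∃ u : sphere (0 : X) 1, ‖(u : X) - ((y : X) - s • ((g y : X) - y))‖ ≤ 4 * s ^ 2 ∧
      dist (g y) y - 8 * s ^ 2 ≤ dist (g u) u := by
  have n1 : ∀ z : sphere (0 : X) 1, ‖(z : X)‖ = 1 := fun z => norm_eq_of_mem_sphere z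
  set d : X := (g y : X) - y with hd
  set w : X := (y : X) - s • d with hw
  have d2 : ‖d‖ ≤ 2 := (norm_sub_le _ _).trans (by rw [n1, n1]; norm_num)
  have wy : ‖w - y‖ = s * ‖d‖ := by
    rw [hw, sub_sub_cancel_left, norm_neg, norm_smul, Real.norm_of_nonneg hs.le]
  have wg : ‖w - g y‖ = (1 + s) * ‖d‖ := by
    have : w - g y = -((1 + s) • d) := by rw [hw, add_smul, one_smul, hd]; abel
    rw [this, norm_neg, norm_smul, Real.norm_of_nonneg (by linarith)]
  have e1 : w = (1 + s) • (y : X) - s • (g y : X) := by rw [hw, hd, add_smul, one_smul, smul_sub]; abel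
  have h1 : 1 ≤ ‖w‖ := by
    have := norm_sub_norm_le ((1 + s) • (y : X)) (s • (g y : X))
    rw [← e1, norm_smul, norm_smul, n1, n1, Real.norm_of_nonneg hs.le,
      Real.norm_of_nonneg (by linarith)] at this
    linarith
  have h0 : 0 < ‖w‖ := by linarith
  have h3 : ‖w‖ - 1 ≤ s * ‖d‖ := by
    have := norm_sub_norm_le w y
    rwa [n1, wy] at this
  let u : sphere (0 : X) 1 := ⟨‖w‖⁻¹ • w, by
    rw [mem_sphere_zero_iff_norm, norm_smul, norm_inv, norm_norm, inv_mul_cancel₀ h0.ne']⟩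
  have wu : w = ‖w‖ • (u : X) := by
    show w = ‖w‖ • ‖w‖⁻¹ • w
    rw [smul_smul, mul_inv_cancel₀ h0.ne', one_smul]
  have uw : ‖(u : X) - w‖ = ‖w‖ - 1 := by
    have : (u : X) - w = -((‖w‖ - 1) • (u : X)) := by rw [sub_smul, one_smul, ← wu]; abel
    rw [this, norm_neg, norm_smul, n1, Real.norm_of_nonneg (by linarith), mul_one]
  have uy : ‖(u : X) - y‖ ≤ s * ‖d‖ + (‖w‖ - 1) := by
    have := norm_sub_le_norm_sub_add_norm_sub (u : X) w y
    linarith
  have ug : (1 + s) * ‖d‖ - (‖w‖ - 1) ≤ ‖(u : X) - g y‖ := by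
    have := norm_sub_le_norm_sub_add_norm_sub w (u : X) (g y)
    rw [norm_sub_rev w u] at this
    linarith
  obtain ⟨φ, p1, p2⟩ := exists_dual_vector ℝ ((g u : X) + u) (by rw [h2]; norm_num)
  have pl : ∀ z : X, φ z ≤ ‖z‖ := fun z => by
    have := φ.le_opNorm z
    rw [p1, one_mul] at this
    exact (le_abs_self _).trans this
  rw [h2, map_add] at p2
  have p2' : φ (g u) + φ u = 2 := by exact_mod_cast p2
  have q1 := pl (g u)
  have q2 := pl u
  have q3 := pl y
  rw [n1] at q1 q2 q3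
  have q4 := pl ((g u : X) - g y)
  have q5 : ‖(g u : X) - g y‖ = ‖(u : X) - y‖ := by
    have := gi.dist_eq u y
    rwa [Subtype.dist_eq, Subtype.dist_eq, dist_eq_norm, dist_eq_norm] at this
  rw [map_sub, q5] at q4
  have q6 : φ w = ‖w‖ := by
    have : φ u = 1 := by linarith
    conv_lhs => rw [wu]
    rw [map_smul, this, smul_eq_mul, mul_one]
  have q7 : φ w = (1 + s) * φ y - s * φ (g y) := by
    rw [e1, map_sub, map_smul, map_smul, smul_eq_mul, smul_eq_mul]
  have q8 : 1 - 4 * s ≤ φ (g y) := by nlinarith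
  have q9 : ‖w‖ - 1 ≤ 4 * s ^ 2 := by nlinarith
  refine ⟨u, by rw [uw]; exact q9, ?_⟩
  obtain ⟨v, hv⟩ := gs u
  have r1 : dist (g u) u = dist u v := by rw [← gi.dist_eq u v, hv]
  have r2 : dist u (g y) = dist v y := by rw [← gi.dist_eq v y, hv]
  have r3 := dist_triangle v u y
  have r4 : dist u (g y) = ‖(u : X) - g y‖ := by rw [Subtype.dist_eq, dist_eq_norm]
  have r5 : dist u y = ‖(u : X) - y‖ := by rw [Subtype.dist_eq, dist_eq_norm]
  have r6 : dist (g y) y = ‖d‖ := by rw [Subtype.dist_eq, dist_eq_norm]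
  rw [dist_comm v u] at r3
  nlinarith

theorem core (hX : HasRNP X) (g : sphere (0 : X) 1 → sphere (0 : X) 1) (gi : Isometry g)
    (gs : Function.Surjective g) (h2 : ∀ x, ‖(g x : X) + x‖ = 2) (x0 : sphere (0 : X) 1) : g x0 = x0 := by
  by_contra hne
  have n1 : ∀ z : sphere (0 : X) 1, ‖(z : X)‖ = 1 := fun z => norm_eq_of_mem_sphere z
  have e0 : 0 < dist (g x0) x0 := dist_pos.2 hne
  set δ := dist (g x0) x0 / 2 with hδ
  have δ0 : 0 < δ := by positivity
  obtain ⟨_, ⟨x, hx, rfl⟩, hn⟩ := hX (Subtype.val '' {y : sphere (0 : X) 1 | δ < dist (g y) y})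
    ⟨x0, x0, by show δ < _; linarith, rfl⟩
    (isBounded_sphere.subset (by rintro _ ⟨y, _, rfl⟩; exact y.2)) (δ / 2) (by positivity)
  obtain ⟨φ, c, k1, k2⟩ := geometric_hahn_banach_closed_point (convex_convexHull ℝ _).closure
    isClosed_closure hn
  have k3 : ∀ y : sphere (0 : X) 1, δ < dist (g y) y → c ≤ φ y → dist y x < δ / 2 := fun y hy hc => by
    by_contra hh
    exact absurd (k1 y (subset_closure (subset_convexHull ℝ _ ⟨⟨y, hy, rfl⟩, hh⟩))) (not_lt.2 hc)
  have k4 : ∀ y : sphere (0 : X) 1, δ < dist (g y) y → c ≤ φ y → φ (g y) < c := fun y hy hc => by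
    by_contra hh
    have a1 := k3 y hy hc
    have a2 := k3 (g y) (by rwa [gi.dist_eq]) (not_lt.1 hh)
    have a3 := dist_triangle_right (g y) y x
    linarith
  have pl : ∀ z : X, |φ z| ≤ ‖φ‖ * ‖z‖ := fun z => φ.le_opNorm z
  set α := φ x - c with hα
  have α0 : 0 < α := by linarith
  set β := dist (g x) x - δ with hβ
  have β0 : 0 < β := sub_pos.2 hx
  set T := 2 * (‖φ‖ + |c| + 1) / α with hT
  have T0 : 0 < T := by positivity
  obtain ⟨N, hN⟩ := exists_nat_gt (8 * ‖φ‖ * T / α + 8 * T ^ 2 / β)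
  have t1 : 0 ≤ 8 * ‖φ‖ * T / α := by positivity
  have t2 : 0 < 8 * T ^ 2 / β := by positivity
  have N0 : (0 : ℝ) < N := by linarith
  set s := T / N with hs
  have s0 : 0 < s := by positivity
  have sN : N * s = T := by rw [hs]; field_simp
  have c1 : 8 * ‖φ‖ * s ≤ α := by
    have : 8 * ‖φ‖ * T / α ≤ N := by linarith
    rw [div_le_iff₀ α0, ← sN] at this
    nlinarith
  have c2 : 8 * N * s ^ 2 < β := by
    have : 8 * T ^ 2 / β < N := by linarith
    rw [div_lt_iff₀ β0, ← sN] at this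
    nlinarith
  have key : ∀ n : ℕ, n ≤ N → ∃ y : sphere (0 : X) 1,
      dist (g x) x - 8 * n * s ^ 2 ≤ dist (g y) y ∧ α + n * s * α / 2 ≤ φ y - c := by
    intro n
    induction n with
    | zero => exact fun _ => ⟨x, by simp, by simp [hα]⟩
    | succ n ih =>
      intro hn'
      obtain ⟨y, y1, y2⟩ := ih (by omega)
      have nN : (n : ℝ) ≤ N := by exact_mod_cast (by omega : n ≤ N)
      have n0 : (0 : ℝ) ≤ n * s * α / 2 := by positivity
      have y3 : δ < dist (g y) y := by nlinarith [sq_nonneg s]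
      have y4 := k4 y y3 (by linarith)
      obtain ⟨u, u1, u2⟩ := step g gi gs h2 y s0
      refine ⟨u, by push_cast; linarith, ?_⟩
      have u3 := (abs_le.1 ((pl _).trans (mul_le_mul_of_nonneg_left u1 (norm_nonneg φ)))).1
      rw [map_sub, map_sub, map_smul, map_sub, smul_eq_mul] at u3
      have u4 : s * α ≤ s * (φ y - φ (g y)) := mul_le_mul_of_nonneg_left (by linarith) s0.le
      have u5 : 8 * ‖φ‖ * s * s ≤ α * s := mul_le_mul_of_nonneg_right c1 s0.le
      push_cast
      nlinarith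
  obtain ⟨y, -, y2⟩ := key N le_rfl
  have z1 := (abs_le.1 (pl y)).2
  rw [n1, mul_one] at z1
  have z2 : T * α = 2 * (‖φ‖ + |c| + 1) := by rw [hT]; field_simp
  rw [sN] at y2
  have z3 := neg_abs_le c
  linarith

theorem odd {Y : Type*} [NormedAddCommGroup Y] [NormedSpace ℝ Y] (hX : HasRNP X)
    (f : sphere (0 : X) 1 ≃ᵢ sphere (0 : Y) 1) (x : sphere (0 : X) 1) : f (-x) = -f x := by
  have ng : ∀ {Z : Type _} [NormedAddCommGroup Z] (a b : sphere (0 : Z) 1), dist (-a) (-b) = dist a b :=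
    fun a b => by rw [Subtype.dist_eq, Subtype.dist_eq, coe_neg_sphere, coe_neg_sphere, dist_neg_neg]
  have ng' : ∀ (a b : sphere (0 : Y) 1), dist (-a) (-b) = dist a b :=
    fun a b => by rw [Subtype.dist_eq, Subtype.dist_eq, coe_neg_sphere, coe_neg_sphere, dist_neg_neg]
  have := core hX (fun z => -f.symm (-f z))
    (Isometry.of_dist_eq fun a b => by rw [ng, f.symm.dist_eq, ng', f.dist_eq])
    (fun z => ⟨f.symm (-f (-z)), by simp⟩) (fun z => by
      have h := f.dist_eq (f.symm (-f z)) z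
      rw [f.apply_symm_apply, Subtype.dist_eq, Subtype.dist_eq, dist_eq_norm, dist_eq_norm,
        coe_neg_sphere, ← neg_add', norm_neg, ← two_smul ℝ, norm_smul, norm_eq_of_mem_sphere] at h
      rw [coe_neg_sphere, neg_add_eq_sub, norm_sub_rev, ← h]
      norm_num) x
  rw [← this, neg_neg, f.apply_symm_apply, this]

end

theorem result {X Y : Type*} [NormedAddCommGroup X] [NormedSpace ℝ X] [CompleteSpace X]
    [NormedAddCommGroup Y] [NormedSpace ℝ Y] [CompleteSpace Y] (h : HasRNP X ∨ HasRNP Y)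
    (f : sphere (0 : X) 1 → sphere (0 : Y) 1) (hf : Isometry f) (hs : Function.Surjective f)
    (x : sphere (0 : X) 1) : f (-x) = -f x := by
  let e : sphere (0 : X) 1 ≃ᵢ sphere (0 : Y) 1 := ⟨Equiv.ofBijective f ⟨hf.injective, hs⟩, hf⟩
  show e (-x) = -e x
  rcases h with h | h
  · exact odd h e x
  · have := odd h e.symm (e x)
    rw [e.symm_apply_apply] at this
    rw [← this, e.apply_symm_apply]

end Vale.Agent.Results.P084.Odd
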