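import Vale.Agent.P084.H1Odd
import Vale.Agent.P084.H1Sum

namespace Vale.Agent.Results.P084.SumInf

open Metric

theorem result {Z Y : Type*} [NormedAddCommGroup Z] [NormedSpace ℝ Z]
    [NormedAddCommGroup Y] [NormedSpace ℝ Y]
    (f : sphere (0 : Z × ℝ) 1 → sphere (0 : Y) 1) (hf : Isometry f) (hs : Function.Surjective f) :
    ∃ T : (Z × ℝ) ≃ₗᵢ[ℝ] Y, ∀ x : sphere (0 : Z × ℝ) 1, T x = f x := by
  classical
  let F : Z × ℝ → Y := fun x => if h : ‖x‖ = 1 then f ⟨x, mem_sphere_zero_iff_norm.2 h⟩ else 0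
  have e : ∀ x (h : ‖x‖ = 1), F x = f ⟨x, mem_sphere_zero_iff_norm.2 h⟩ := fun x h => dif_pos h
  obtain ⟨T, hT⟩ := Vale.Agent.P084.H1.sum_ext F
    (fun x h => by rw [e x h]; exact norm_eq_of_mem_sphere _)
    (fun x x' h h' => by
      have := hf.dist_eq ⟨x, mem_sphere_zero_iff_norm.2 h⟩ ⟨x', mem_sphere_zero_iff_norm.2 h'⟩
      rwa [Subtype.dist_eq, Subtype.dist_eq, dist_eq_norm, dist_eq_norm, ← e x h, ← e x' h'] at this)
    (fun y h => by
      obtain ⟨x, hx⟩ := hs ⟨y, mem_sphere_zero_iff_norm.2 h⟩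
      exact ⟨x, norm_eq_of_mem_sphere x, by rw [e _ (norm_eq_of_mem_sphere x)]; exact congrArg _ hx⟩)
    fun x h => by
      rw [e x h, e (-x) (by rwa [norm_neg])]
      exact congrArg Subtype.val
        (Vale.Agent.P084.H1.odd f hf hs ⟨x, mem_sphere_zero_iff_norm.2 h⟩)
  exact ⟨T, fun x => (hT _ (norm_eq_of_mem_sphere x)).trans (e _ (norm_eq_of_mem_sphere x))⟩

end Vale.Agent.Results.P084.SumInf
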